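import Vale.Agent.P329.DefsG
import Vale.Agent.P329.GroupStep

open Vale.Agent.P329

/-- Every language recognized by a finite group having an abelian normal subgroup of prime index
has generalized star height at most one. -/
theorem Vale.Agent.Results.P329.AbelianPrimeIndex.result {S G : Type} [Finite S] [Group G]
    [Finite G] (A : Subgroup G) [A.Normal] (hA : ∀ x ∈ A, ∀ y ∈ A, x * y = y * x)
    (hp : A.index.Prime) (φ : FreeMonoid S →* G) (L : Language S)
    (hL : ∀ u v : List S, φ (FreeMonoid.ofList u) = φ (FreeMonoid.ofList v) → (u ∈ L ↔ v ∈ L)) :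
    ∃ e : GExp S, e.height ≤ 1 ∧ e.lang = L := by
  have hval : ∀ x : List S, φ (FreeMonoid.ofList x) = (x.map (fun s => φ (FreeMonoid.of s))).prod := by
    intro x
    induction x with
    | nil => simp
    | cons s x ih => simp [FreeMonoid.ofList_cons, ih]
  have h := abelian_prime_index A hA hp (fun s => φ (FreeMonoid.of s))
    {g | ∃ u ∈ L, φ (FreeMonoid.ofList u) = g}
  obtain ⟨e, he, hx⟩ := h
  refine ⟨e, he, Set.ext fun x => ?_⟩
  have h1 : x ∈ e.lang ↔ φ (FreeMonoid.ofList x) ∈ {g | ∃ u ∈ L, φ (FreeMonoid.ofList u) = g} := by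
    rw [hval x]
    exact hx x
  refine h1.trans ?_
  constructor
  · rintro ⟨u, hu, hux⟩
    exact (hL u x hux).1 hu
  · intro hx'
    exact ⟨x, hx', rfl⟩
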