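import Vale.Agent.P329.DefsG
import Vale.Agent.P329h26.WrDefs
import Vale.Agent.P329h26.Wreath

open Vale.Agent.P329 Vale.Agent.P329h26

/-- Every language recognized by a wreath product `N₁ ∘ (G ∘ N₂)` of finite monoids, with `G` an
abelian group and `N₁`, `N₂` aperiodic, has generalized star height at most one. -/
theorem Vale.Agent.Results.P329.AbelianWrAperiodic.result {S N₁ G N₂ : Type} [Finite S]
    [Monoid N₁] [Finite N₁] (h₁ : ∀ x : N₁, ∃ n : ℕ, x ^ n = x ^ (n + 1))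
    [CommGroup G] [Finite G]
    [Monoid N₂] [Finite N₂] (h₂ : ∀ x : N₂, ∃ n : ℕ, x ^ n = x ^ (n + 1))
    (Φ : FreeMonoid S →* Wr N₁ (Wr G N₂)) (L : Language S)
    (hL : ∀ u v : List S, Φ (FreeMonoid.ofList u) = Φ (FreeMonoid.ofList v) → (u ∈ L ↔ v ∈ L)) :
    ∃ e : GExp S, e.height ≤ 1 ∧ e.lang = L := by
  obtain ⟨e, he, hx⟩ := ((wreath_main h₁ h₂ Φ).preimage
    {g | ∃ u ∈ L, Φ (FreeMonoid.ofList u) = g}).exists_exp
  refine ⟨e, he, ?_⟩
  rw [hx]
  apply Set.ext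
  intro x
  constructor
  · rintro ⟨u, hu, hux⟩
    exact (hL u x hux).1 hu
  · intro hx'
    exact ⟨x, hx', rfl⟩
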