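import Vale.Agent.P329.Nil3

open Computability

namespace Vale.Agent.Results.P329.NilpotentClassThree

open Vale.Agent.P329

/-- Every language over a finite alphabet recognized by a finite nilpotent group of class at most
three has generalized star height at most one. -/
theorem result {α G : Type} [Finite α] [Group G] [Finite G] [Group.IsNilpotent G]
    (hG : Group.nilpotencyClass G ≤ 3) (f : α → G) (S : Set G) :
    GenStarHeightLE ({w | (w.map f).prod ∈ S} : Language α) 1 := by
  have h3 : Subgroup.upperCentralSeries G 3 = ⊤ :=
    Subgroup.upperCentralSeries_eq_top_iff_nilpotencyClass_le.2 hG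
  exact (obs_class3 h3 f).preimage S
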