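import Vale.Agent.P329.Affine

open Computability

namespace Vale.Agent.Results.P329.S3A4Abelian

open Vale.Agent.P329

/-- Let `G` be a finite group that embeds in a product `A × S₃^m × A₄^n`, with `A` a finite
abelian group.  Then every language over a finite alphabet that is recognized by `G` has
generalized star height at most one. -/
theorem result {α : Type} [Finite α] {G A : Type} [Group G] [Finite G] [CommGroup A] [Finite A]
    {m n : ℕ} (e : G →* A × (Fin m → Equiv.Perm (Fin 3)) × (Fin n → alternatingGroup (Fin 4)))
    (he : Function.Injective e) (f : α → G) (S : Set G) :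
    GenStarHeightLE ({w | (w.map f).prod ∈ S} : Language α) 1 := by
  have h1 : Obs 1 (fun x : List α => (x.map fun b => (e (f b)).1).prod) := obs_comm _
  have h2 : ∀ i : Fin m, Obs 1 (fun x : List α => (x.map fun b => (e (f b)).2.1 i).prod) :=
    fun i => obs_S3 _
  have h3 : ∀ i : Fin n, Obs 1 (fun x : List α => (x.map fun b => (e (f b)).2.2 i).prod) :=
    fun i => obs_A4 _
  have hd : Obs 1 (fun x : List α => (x.map f).prod) := by
    refine (h1.prod ((Obs.pi h2).prod (Obs.pi h3))).of_determines ?_
    intro x y hxy
    have hx1 := (Prod.ext_iff.1 hxy).1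
    have hx2 := (Prod.ext_iff.1 (Prod.ext_iff.1 hxy).2).1
    have hx3 := (Prod.ext_iff.1 (Prod.ext_iff.1 hxy).2).2
    apply he
    have key : ∀ x : List α, e (x.map f).prod
        = ((x.map fun b => (e (f b)).1).prod,
            (fun i => (x.map fun b => (e (f b)).2.1 i).prod),
            (fun i => (x.map fun b => (e (f b)).2.2 i).prod)) := by
      intro x
      induction x with
      | nil => simp; rfl
      | cons c x ih =>
        simp only [List.map_cons, List.prod_cons, map_mul, ih]
        rfl
    rw [key, key]
    refine Prod.ext hx1 (Prod.ext ?_ ?_)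
    · exact hx2
    · exact hx3
  exact hd.preimage S
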